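import Vale.Agent.P088.R2.H660.P.Spec

/-!
# P088, stage 3, the flat pass: row ZP (zero point energy of `ϑ (4/5) K s (1 - h h) s`)
-/

open MeasureTheory Set Filter
open scoped ContDiff Topology

noncomputable section

namespace Vale.Agent.P088.R2.H285.W

open Vale.Agent.P088.R2.H961.GW Vale.Agent.P088.R2.H644 Vale.Agent.P088.R2.H960.W
  Vale.Agent.P088.R2.H747.S Vale.Agent.P088.R2.H660.W Vale.Agent.P088.R2.H230.W
  Vale.Agent.P088.R2.H660.P

set_option linter.unusedSectionVars false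

variable {E ι : Type*} [NormedAddCommGroup E] [NormedSpace ℝ E] [Fintype ι] [DecidableEq ι]

theorem abs_sum2_le (f : ι → ι → ℝ) (B : ℝ) (hB : ∀ i j, |f i j| ≤ B) :
    |∑ i, ∑ j, f i j| ≤ (Fintype.card ι : ℝ) ^ 2 * B := by
  calc |∑ i, ∑ j, f i j| ≤ ∑ i, |∑ j, f i j| := Finset.abs_sum_le_sum_abs _ _
    _ ≤ ∑ i, ∑ j, |f i j| := Finset.sum_le_sum fun i _ => Finset.abs_sum_le_sum_abs _ _
    _ ≤ ∑ _i : ι, ∑ _j : ι, B :=
      Finset.sum_le_sum fun i _ => Finset.sum_le_sum fun j _ => hB i j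
    _ = (Fintype.card ι : ℝ) ^ 2 * B := by
      simp only [Finset.sum_const, Finset.card_univ, nsmul_eq_mul]; ring

theorem abs_le_one_of {h : ι → ℝ} (hh : dd h h = 1) (i : ι) : |h i| ≤ 1 := by
  have h1 : h i * h i ≤ dd h h := by
    unfold dd
    exact Finset.single_le_sum (f := fun i => h i * h i) (fun j _ => mul_self_nonneg (h j))
      (Finset.mem_univ i)
  rw [hh] at h1
  exact abs_le_one_iff_mul_self_le_one.2 h1

theorem abs_dl (i j : ι) : |dl i j| ≤ 1 := by
  unfold dl; split_ifs <;> simp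

theorem abs_mm {h : ι → ℝ} (hh : dd h h = 1) (k l : ι) : |dl k l - h k * h l| ≤ 2 := by
  have h1 := abs_dl k l
  have h2 : |h k * h l| ≤ 1 := by
    rw [abs_mul]
    exact mul_le_one₀ (abs_le_one_of hh k) (abs_nonneg _) (abs_le_one_of hh l)
  calc |dl k l - h k * h l| ≤ |dl k l| + |h k * h l| := abs_sub _ _
    _ ≤ 2 := by linarith

theorem abs_ss {a : ι → ι → ℝ} {ε : ℝ} (hε : ε ≤ 1) (ha : ∀ i j, |a i j - dl i j| ≤ ε) (i j : ι) :
    |a i j| ≤ 2 := by
  have h1 := ha i j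
  have h2 := abs_dl i j
  have h3 : |a i j| ≤ |a i j - dl i j| + |dl i j| := by
    have := abs_add_le (a i j - dl i j) (dl i j)
    simpa using this
  linarith

/-- product of three factors -/
theorem abs_mul3_le {a b c A B C : ℝ} (ha : |a| ≤ A) (hb : |b| ≤ B) (hc : |c| ≤ C) :
    |a * b * c| ≤ A * B * C := by
  rw [abs_mul, abs_mul]
  have hA : 0 ≤ A := (abs_nonneg a).trans ha
  have hB : 0 ≤ B := (abs_nonneg b).trans hb
  exact mul_le_mul (mul_le_mul ha hb (abs_nonneg _) hA) hc (abs_nonneg _) (mul_nonneg hA hB)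

section alg

variable {a : ι → ι → ℝ} {h e : ι → ℝ} {ε : ℝ}

/-- the form at a point -/
def ph (a : ι → ι → ℝ) (h : ι → ℝ) (i j : ι) : ℝ :=
  ∑ k, ∑ l, a i k * (dl k l - h k * h l) * a l j

theorem abs_ph (hε : ε ≤ 1) (ha : ∀ i j, |a i j - dl i j| ≤ ε) (hh : dd h h = 1) (i j : ι) :
    |ph a h i j| ≤ (Fintype.card ι : ℝ) ^ 2 * 8 := by
  refine abs_sum2_le _ _ fun k l => ?_
  refine (abs_mul3_le (abs_ss hε ha i k) (abs_mm hh k l) (abs_ss hε ha l j)).trans ?_
  norm_num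

theorem dl_sum (m : ι → ι → ℝ) (i j : ι) : ∑ k, ∑ l, dl i k * m k l * dl l j = m i j := by
  have h1 : ∀ k, ∑ l, dl i k * m k l * dl l j = dl i k * m k j := by
    intro k
    rw [Finset.sum_eq_single j]
    · simp [dl]
    · intro l _ hl
      simp [dl, hl]
    · intro hj; exact absurd (Finset.mem_univ j) hj
  rw [Finset.sum_congr rfl fun k _ => h1 k, Finset.sum_eq_single i]
  · simp [dl]
  · intro k _ hk
    simp [dl, Ne.symm hk]
  · intro hi; exact absurd (Finset.mem_univ i) hi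

theorem abs_ph_sub (hε : ε ≤ 1) (ha : ∀ i j, |a i j - dl i j| ≤ ε) (hh : dd h h = 1) (i j : ι) :
    |ph a h i j - (dl i j - h i * h j)| ≤ (Fintype.card ι : ℝ) ^ 2 * (6 * ε) := by
  have h1 : ph a h i j - (dl i j - h i * h j) =
      ∑ k, ∑ l, (a i k * (dl k l - h k * h l) * a l j -
        dl i k * (dl k l - h k * h l) * dl l j) := by
    simp only [Finset.sum_sub_distrib]
    rw [dl_sum (fun k l => dl k l - h k * h l) i j]
    rfl
  rw [h1]
  refine abs_sum2_le _ _ fun k l => ?_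
  have e1 : a i k * (dl k l - h k * h l) * a l j - dl i k * (dl k l - h k * h l) * dl l j =
      (a i k - dl i k) * (dl k l - h k * h l) * a l j +
        dl i k * (dl k l - h k * h l) * (a l j - dl l j) := by ring
  rw [e1]
  have b1 := abs_mul3_le (ha i k) (abs_mm hh k l) (abs_ss hε ha l j)
  have b2 := abs_mul3_le (abs_dl i k) (abs_mm hh k l) (ha l j)
  calc _ ≤ _ := abs_add_le _ _
    _ ≤ ε * 2 * 2 + 1 * 2 * ε := add_le_add b1 b2
    _ = 6 * ε := by ring

theorem dl_row (f : ι → ι → ℝ) : ∑ i, ∑ j, dl i j * f i j = ∑ i, f i i := by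
  refine Finset.sum_congr rfl fun i _ => ?_
  rw [Finset.sum_eq_single i]
  · simp [dl]
  · intro j _ hj
    simp [dl, Ne.symm hj]
  · intro hi; exact absurd (Finset.mem_univ i) hi

theorem tr_mm (hh : dd h h = 1) :
    ∑ i, ∑ j, (dl i j - h i * h j) * (dl i j - h i * h j) = (Fintype.card ι : ℝ) - 1 := by
  have e1 : ∀ i j, (dl i j - h i * h j) * (dl i j - h i * h j) =
      dl i j * (1 - 2 * (h i * h j)) + (h i * h i) * (h j * h j) := by
    intro i j
    have : dl i j * dl i j = dl i j := by unfold dl; split_ifs <;> simp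
    linear_combination this
  simp only [e1, Finset.sum_add_distrib]
  rw [dl_row (fun i j => 1 - 2 * (h i * h j)), ← Finset.sum_mul_sum]
  have e2 : ∑ i, h i * h i = 1 := hh
  rw [e2, Finset.sum_sub_distrib, ← Finset.mul_sum, e2]
  simp only [Finset.sum_const, Finset.card_univ, nsmul_eq_mul]
  ring

theorem tr_me : ∑ i, ∑ j, (dl i j - h i * h j) * (e i * e j) = dd e e - dd h e ^ 2 := by
  have e1 : ∀ i j, (dl i j - h i * h j) * (e i * e j) =
      dl i j * (e i * e j) - (h i * e i) * (h j * e j) := by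
    intro i j; ring
  simp only [e1, Finset.sum_sub_distrib]
  rw [dl_row (fun i j => e i * e j), ← Finset.sum_mul_sum]
  unfold dd; ring

theorem dd_sq_le : dd h e ^ 2 ≤ dd h h * dd e e := by
  have := Finset.sum_mul_sq_le_sq_mul_sq (Finset.univ : Finset ι) h e
  simpa only [dd, sq] using this

/-- the trace part -/
theorem trace_ge {K b : ℝ} {M : ι → ι → ℝ} (hε : ε ≤ 1) (ha : ∀ i j, |a i j - dl i j| ≤ ε)
    (hK : 0 < K) (b0 : 0 ≤ b) (b1 : b ≤ 53 / 100 * K) (hh : dd h h = 1) (ee : dd e e = 1)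
    (hM : ∀ i j, |M i j - (K * (dl i j - h i * h j) + b * (e i * e j))| ≤ ε * K) :
    K * ((Fintype.card ι : ℝ) - 1) - (Fintype.card ι : ℝ) ^ 4 * (26 * ε) * K ≤
      ∑ i, ∑ j, ph a h i j * M i j := by
  have hε0 : 0 ≤ ε := by
    by_contra hc
    push Not at hc
    have hne : Nonempty ι := by
      by_contra hcc
      rw [not_nonempty_iff] at hcc
      have : dd h h = 0 := by simp [dd]
      rw [hh] at this; norm_num at this
    obtain ⟨i⟩ := hne
    have := (abs_nonneg _).trans (ha i i)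
    linarith
  have e1 : ∑ i, ∑ j, ph a h i j * M i j =
      ∑ i, ∑ j, (dl i j - h i * h j) * (K * (dl i j - h i * h j) + b * (e i * e j)) +
        ∑ i, ∑ j, ((ph a h i j - (dl i j - h i * h j)) * (K * (dl i j - h i * h j) +
          b * (e i * e j)) + ph a h i j * (M i j - (K * (dl i j - h i * h j) +
          b * (e i * e j)))) := by
    simp only [← Finset.sum_add_distrib]
    refine Finset.sum_congr rfl fun i _ => Finset.sum_congr rfl fun j _ => ?_
    ring
  have e2 : ∑ i, ∑ j, (dl i j - h i * h j) * (K * (dl i j - h i * h j) + b * (e i * e j)) =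
      K * ((Fintype.card ι : ℝ) - 1) + b * (1 - dd h e ^ 2) := by
    rw [← tr_mm hh, ← ee, ← tr_me]
    simp only [Finset.mul_sum, ← Finset.sum_add_distrib]
    refine Finset.sum_congr rfl fun i _ => Finset.sum_congr rfl fun j _ => ?_
    ring
  have e3 : 0 ≤ b * (1 - dd h e ^ 2) := by
    refine mul_nonneg b0 ?_
    have := dd_sq_le (h := h) (e := e)
    rw [hh, ee] at this
    linarith
  set n : ℝ := (Fintype.card ι : ℝ) with hn
  have hn0 : 0 ≤ n := Nat.cast_nonneg _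
  have e4 : |∑ i, ∑ j, ((ph a h i j - (dl i j - h i * h j)) * (K * (dl i j - h i * h j) +
          b * (e i * e j)) + ph a h i j * (M i j - (K * (dl i j - h i * h j) +
          b * (e i * e j))))| ≤ n ^ 2 * (n ^ 2 * (26 * ε) * K) := by
    refine abs_sum2_le _ _ fun i j => ?_
    have c1 : |K * (dl i j - h i * h j) + b * (e i * e j)| ≤ 3 * K := by
      have c2 : |K * (dl i j - h i * h j)| ≤ K * 2 := by
        rw [abs_mul, abs_of_pos hK]
        exact mul_le_mul_of_nonneg_left (abs_mm hh i j) hK.le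
      have c3 : |b * (e i * e j)| ≤ 53 / 100 * K := by
        rw [abs_mul, abs_of_nonneg b0, abs_mul]
        have : |e i| * |e j| ≤ 1 :=
          mul_le_one₀ (abs_le_one_of ee i) (abs_nonneg _) (abs_le_one_of ee j)
        calc b * (|e i| * |e j|) ≤ b * 1 := mul_le_mul_of_nonneg_left this b0
          _ ≤ _ := by linarith
      have := abs_add_le (K * (dl i j - h i * h j)) (b * (e i * e j))
      linarith
    have d1 := abs_ph_sub hε ha hh i j
    have d2 := abs_ph hε ha hh i j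
    have d3 := hM i j
    rw [← hn] at d1 d2
    calc _ ≤ _ := abs_add_le _ _
      _ ≤ n ^ 2 * (6 * ε) * (3 * K) + n ^ 2 * 8 * (ε * K) := by
        rw [abs_mul, abs_mul]
        exact add_le_add (mul_le_mul d1 c1 (abs_nonneg _) (by positivity))
          (mul_le_mul d2 d3 (abs_nonneg _) (by positivity))
      _ = n ^ 2 * (26 * ε) * K := by ring
  have e5 := (abs_le.1 e4).1
  rw [e1, e2]
  have e6 : n ^ 2 * (n ^ 2 * (26 * ε) * K) = n ^ 4 * (26 * ε) * K := by ring
  linarith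

end alg

section der

variable {σ : Sl E ι} {U : Set E} {θ W K ϑ : E → ℝ} {h : ι → E → ℝ} {z : E}

theorem sm_mm (hh : ∀ i, Sm U (h i)) (k l : ι) : Sm U fun z => dl k l - h k z * h l z :=
  contDiffOn_const.sub ((hh k).mul (hh l))

theorem sm_Ph (ok : σ.Ok U θ) (hh : ∀ i, Sm U (h i)) (i j : ι) : Sm U (Ph σ h i j) :=
  Sm.sum _ fun k _ => Sm.sum _ fun l _ => ((ok.ss i k).mul (sm_mm hh k l)).mul (ok.ss l j)

theorem D_mm (hU : IsOpen U) (hh : ∀ i, Sm U (h i)) (m k l : ι) (hz : z ∈ U) :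
    σ.D m (fun z => dl k l - h k z * h l z) z =
      -(σ.D m (h k) z * h l z + h k z * σ.D m (h l) z) := by
  rw [D_sub σ hU (f := fun _ => dl k l) (g := fun z => h k z * h l z) contDiffOn_const
    ((hh k).mul (hh l)) m hz, D_const, D_mul σ hU (hh k) (hh l) m hz]
  ring

theorem D_Ph (ok : σ.Ok U θ) (hh : ∀ i, Sm U (h i)) (m i j : ι) (hz : z ∈ U) :
    σ.D m (Ph σ h i j) z = ∑ k, ∑ l,
      (σ.D m (σ.s i k) z * (dl k l - h k z * h l z) * σ.s l j z +
        σ.s i k z * (-(σ.D m (h k) z * h l z + h k z * σ.D m (h l) z)) * σ.s l j z +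
        σ.s i k z * (dl k l - h k z * h l z) * σ.D m (σ.s l j) z) := by
  have hU := ok.op
  have s1 : ∀ k l, Sm U fun z => σ.s i k z * (dl k l - h k z * h l z) * σ.s l j z := fun k l =>
    ((ok.ss i k).mul (sm_mm hh k l)).mul (ok.ss l j)
  have e0 : Ph σ h i j = fun z => ∑ k, ∑ l,
      σ.s i k z * (dl k l - h k z * h l z) * σ.s l j z := rfl
  rw [e0, D_sum σ hU Finset.univ (fun k _ => Sm.sum _ fun l _ => s1 k l) m hz]
  refine Finset.sum_congr rfl fun k _ => ?_
  rw [D_sum σ hU Finset.univ (fun l _ => s1 k l) m hz]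
  refine Finset.sum_congr rfl fun l _ => ?_
  rw [D_mul σ hU ((ok.ss i k).mul (sm_mm hh k l)) (ok.ss l j) m hz,
    D_mul σ hU (ok.ss i k) (sm_mm hh k l) m hz, D_mm hU hh m k l hz]
  ring

end der

/-- **Row ZP.** -/
theorem rowPZP (E ι : Type*) [NormedAddCommGroup E] [NormedSpace ℝ E] [Fintype ι]
    [DecidableEq ι] : RowPZP E ι := by
  set n : ℝ := (Fintype.card ι : ℝ) with hn
  have hn0 : 0 ≤ n := Nat.cast_nonneg _
  refine ⟨1 / (1300 * (n ^ 4 + 1)), 13 * n ^ 4 + 1, by positivity, by positivity, ?_⟩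
  intro σ U θ W K ϑ h e b w₁ κ₁ η₁ t₁ z ok hρ hk hW hK hϑ hh hz hϑ0 H hw hκ hη hη' ht
  set ε : ℝ := 1 / (1300 * (n ^ 4 + 1)) with hε
  have hε0 : 0 < ε := by positivity
  have hε1 : ε ≤ 1 := by
    rw [hε, div_le_one (by positivity)]
    nlinarith [pow_nonneg hn0 4]
  have hεn : n ^ 4 * (26 * ε) ≤ 1 / 50 := by
    rw [hε]
    have : n ^ 4 * (26 * (1 / (1300 * (n ^ 4 + 1)))) = (1 / 50) * (n ^ 4 / (n ^ 4 + 1)) := by
      field_simp
      ring
    rw [this]
    have h1 : n ^ 4 / (n ^ 4 + 1) ≤ 1 := by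
      rw [div_le_one (by positivity)]; linarith
    linarith
  have hU := ok.op
  -- nonempty
  have hne : Nonempty ι := by
    by_contra hcc
    rw [not_nonempty_iff] at hcc
    have h0 : dd (fun i => h i z) (fun i => h i z) = 0 := by simp [dd]
    rw [H.hh] at h0; norm_num at h0
  obtain ⟨i₀⟩ := hne
  have hw0 : 0 ≤ w₁ := (abs_nonneg _).trans (hw i₀)
  have hη0 : 0 ≤ η₁ := (abs_nonneg _).trans (hη i₀ i₀)
  have ht0 : 0 ≤ t₁ := (abs_nonneg _).trans (ht i₀)
  have hKp := H.K0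
  have hκ0 : 0 ≤ κ₁ * K z := (abs_nonneg _).trans (hκ i₀)
  -- product rule
  have sq : ∀ i j, Sm U fun z => ϑ z * (4 / 5 * K z) * Ph σ h i j z := fun i j =>
    (hϑ.mul (contDiffOn_const.mul hK)).mul (sm_Ph ok hh i j)
  have sK : Sm U fun z => 4 / 5 * K z := contDiffOn_const.mul hK
  have eD : ∀ i j, σ.D j (fun z => ϑ z * (4 / 5 * K z) * Ph σ h i j z) z =
      σ.D j ϑ z * (4 / 5 * K z) * Ph σ h i j z + ϑ z * (4 / 5 * σ.D j K z) * Ph σ h i j z +
        ϑ z * (4 / 5 * K z) * σ.D j (Ph σ h i j) z := by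
    intro i j
    rw [D_mul σ hU (f := fun z => ϑ z * (4 / 5 * K z)) (g := Ph σ h i j) (hϑ.mul sK)
      (sm_Ph ok hh i j) j hz, D_mul σ hU hϑ sK j hz, D_cmul σ hU (4 / 5) hK j hz]
    ring
  have ezp : zp σ (fun i j z => ϑ z * (4 / 5 * K z) * Ph σ h i j z) W z =
      ϑ z * (4 / 5 * K z) * (∑ i, ∑ j, Ph σ h i j z * σ.D j (σ.D i W) z) +
        ∑ i, ∑ j, (σ.D j ϑ z * (4 / 5 * K z) * Ph σ h i j z +
          ϑ z * (4 / 5 * σ.D j K z) * Ph σ h i j z +
          ϑ z * (4 / 5 * K z) * σ.D j (Ph σ h i j) z) * σ.D i W z := by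
    have e1 : zp σ (fun i j z => ϑ z * (4 / 5 * K z) * Ph σ h i j z) W z =
        ∑ j, ∑ i, ((σ.D j ϑ z * (4 / 5 * K z) * Ph σ h i j z +
          ϑ z * (4 / 5 * σ.D j K z) * Ph σ h i j z +
          ϑ z * (4 / 5 * K z) * σ.D j (Ph σ h i j) z) * σ.D i W z +
          ϑ z * (4 / 5 * K z) * Ph σ h i j z * σ.D j (σ.D i W) z) := by
      unfold zp
      refine Finset.sum_congr rfl fun j _ => ?_
      rw [hk j z, zero_mul, add_zero,
        D_sum σ hU Finset.univ (fun i _ => (sq i j).mul (ok.sD hW i)) j hz]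
      refine Finset.sum_congr rfl fun i _ => ?_
      rw [D_mul σ hU (sq i j) (ok.sD hW i) j hz, eD i j]
    rw [e1, Finset.sum_comm, Finset.mul_sum, ← Finset.sum_add_distrib]
    refine Finset.sum_congr rfl fun i _ => ?_
    rw [Finset.mul_sum, ← Finset.sum_add_distrib]
    refine Finset.sum_congr rfl fun j _ => ?_
    ring
  -- the trace
  have tr := trace_ge (a := fun i j => σ.s i j z) (h := fun i => h i z) (e := e) (ε := ε)
    (K := K z) (b := b) (M := fun i j => σ.D j (σ.D i W) z) hε1 H.ss hKp H.b0 H.b1 H.hh H.ee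
    (fun i j => by
      have h1 := H.WW j i
      have h2 : K z * (dl j i - h j z * h i z) + b * (e j * e i) =
          K z * (dl i j - h i z * h j z) + b * (e i * e j) := by
        have : (dl j i : ℝ) = dl i j := by unfold dl; simp only [eq_comm]
        rw [this]; ring
      rw [h2] at h1
      exact h1)
  rw [← hn] at tr
  have ePh : ∀ i j, ph (fun i j => σ.s i j z) (fun i => h i z) i j = Ph σ h i j z :=
    fun i j => rfl
  simp only [ePh] at tr
  have bPh : ∀ i j, |Ph σ h i j z| ≤ n ^ 2 * 8 := fun i j =>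
    abs_ph (a := fun i j => σ.s i j z) (h := fun i => h i z) hε1 H.ss H.hh i j
  have bs : ∀ i j, |σ.s i j z| ≤ 2 := fun i j =>
    abs_ss (a := fun i j => σ.s i j z) hε1 H.ss i j
  have bh : ∀ i, |h i z| ≤ 1 := fun i => abs_le_one_of (h := fun i => h i z) H.hh i
  have bm : ∀ k l, |dl k l - h k z * h l z| ≤ 2 := fun k l =>
    abs_mm (h := fun i => h i z) H.hh k l
  have bDPh : ∀ m i j, |σ.D m (Ph σ h i j) z| ≤ n ^ 2 * (16 * η₁) := by
    intro m i j
    rw [D_Ph ok hh m i j hz]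
    refine abs_sum2_le _ _ fun k l => ?_
    have c1 := abs_mul3_le (hη' m i k) (bm k l) (bs l j)
    have c2 : |-(σ.D m (h k) z * h l z + h k z * σ.D m (h l) z)| ≤ 2 * η₁ := by
      rw [abs_neg]
      have d1 : |σ.D m (h k) z * h l z| ≤ η₁ * 1 := by
        rw [abs_mul]
        exact mul_le_mul (hη m k) (bh l) (abs_nonneg _) hη0
      have d2 : |h k z * σ.D m (h l) z| ≤ 1 * η₁ := by
        rw [abs_mul]
        exact mul_le_mul (bh k) (hη m l) (abs_nonneg _) zero_le_one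
      have := abs_add_le (σ.D m (h k) z * h l z) (h k z * σ.D m (h l) z)
      linarith
    have c3 := abs_mul3_le (bs i k) c2 (bs l j)
    have c4 := abs_mul3_le (bs i k) (bm k l) (hη' m l j)
    refine (abs_add_le _ _).trans ?_
    refine (add_le_add (abs_add_le _ _) le_rfl).trans ?_
    refine (add_le_add (add_le_add c1 c3) c4).trans (le_of_eq ?_)
    ring
  have err : |∑ i, ∑ j, (σ.D j ϑ z * (4 / 5 * K z) * Ph σ h i j z +
          ϑ z * (4 / 5 * σ.D j K z) * Ph σ h i j z +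
          ϑ z * (4 / 5 * K z) * σ.D j (Ph σ h i j) z) * σ.D i W z| ≤
      n ^ 2 * ((t₁ * (4 / 5 * K z) * (n ^ 2 * 8) + ϑ z * (4 / 5 * (κ₁ * K z)) * (n ^ 2 * 8) +
        ϑ z * (4 / 5 * K z) * (n ^ 2 * (16 * η₁))) * w₁) := by
    refine abs_sum2_le _ _ fun i j => ?_
    have aϑ : |ϑ z| ≤ ϑ z := (abs_of_nonneg hϑ0).le
    have aK : |4 / 5 * K z| ≤ 4 / 5 * K z := (abs_of_nonneg (by positivity)).le
    have aDK : |4 / 5 * σ.D j K z| ≤ 4 / 5 * (κ₁ * K z) := by
      rw [abs_mul, abs_of_pos (by norm_num : (0 : ℝ) < 4 / 5)]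
      exact mul_le_mul_of_nonneg_left (hκ j) (by norm_num)
    have c1 := abs_mul3_le (ht j) aK (bPh i j)
    have c2 := abs_mul3_le aϑ aDK (bPh i j)
    have c3 := abs_mul3_le aϑ aK (bDPh j i j)
    rw [abs_mul]
    refine mul_le_mul ?_ (hw i) (abs_nonneg _) (by positivity)
    refine (abs_add_le _ _).trans ?_
    refine (add_le_add (abs_add_le _ _) le_rfl).trans ?_
    exact add_le_add (add_le_add c1 c2) c3
  have err' := (abs_le.1 err).1
  rw [ezp]
  have hq0 : 0 ≤ ϑ z * (4 / 5 * K z) := by positivity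
  have main := mul_le_mul_of_nonneg_left tr hq0
  have g1 : ϑ z * (4 / 5 * K z) * (n ^ 4 * (26 * ε) * K z) ≤
      ϑ z * (4 / 5 * K z) * (1 / 50 * K z) :=
    mul_le_mul_of_nonneg_left (mul_le_mul_of_nonneg_right hεn hKp.le) hq0
  have p1 : 0 ≤ t₁ * K z * w₁ := by positivity
  have p2 : 0 ≤ ϑ z * (κ₁ * K z) * w₁ := mul_nonneg (mul_nonneg hϑ0 hκ0) hw0
  have p3 : 0 ≤ ϑ z * η₁ * K z * w₁ := by positivity
  have p4 : 0 ≤ n ^ 4 := by positivity
  have q1 := mul_nonneg p4 p1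
  have q2 := mul_nonneg p4 p2
  have q3 := mul_nonneg p4 p3
  nlinarith [err', main, g1, p1, p2, p3, q1, q2, q3]

end Vale.Agent.P088.R2.H285.W
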